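import Vale.Agent.Lib.P256.SgMain
import Vale.Agent.Lib.P256.CliffMain

namespace Vale.Agent.Results.P256.CubicsOmnibus

open MvPolynomial Matrix Vale.Agent.Lib.P256

/-- Two classes of hyperbolic cubics whose hyperbolicity cones are spectrahedra, in one statement.

First and second part (cubics with a singular point, coordinate-free).  Let `p` be a real cubic
form in `n` variables that is hyperbolic with respect to `e`, and let `x0` be a real point at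
which all first derivatives of `p` vanish and at which the Hessian matrix of `p` is nonzero of
rank at most three.  Then the hyperbolicity cone `K(p, e)` is a spectrahedron, and `x0` or `-x0`
belongs to it.  Criterion: a real cubic form `f` with `f e > 0` that is nonpositive on the upper
boundary of a nondegenerate circular cone `{x | u0·x ≥ sqrt ((u1·x)^2 + (u2·x)^2)}` having `e` in
its interior is hyperbolic with respect to `e` and `K(f, e)` is a spectrahedron.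

Third and fourth part (Clifford cubics).  Let `Γ_1, …, Γ_m` be real symmetric `N × N` matrices
with `Γ_i ^ 2 = 1`, `Γ_i Γ_j = - Γ_j Γ_i` for `i ≠ j` and trace zero, let `J ≥ 1`, and let `l0`,
`h0`, `h_i`, `v_ja` be arbitrary real linear forms in finitely many variables.  The cubic
`p = l0 (h0^2 - ∑ h_i^2) - ∑_j ∑_{a,b} v_ja (δ_ab h0 - ∑_i Γ_i(a,b) h_i) v_jb` is hyperbolic with
respect to every `e` with `h0 e = 1`, `h_i e = 0`, `p e > 0`; its hyperbolicity cone is a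
spectrahedron; every `x0` with `h0 x0 = h_i x0 = v_ja x0 = 0` and `l0 x0 ≥ 0` lies in the cone
and is a zero of `p` at which all first derivatives vanish; and such an `x0 ≠ 0` exists when the
number of variables exceeds `1 + m + J N`.  Such matrices `Γ_i` exist for every `m`. -/
theorem result :
    (∀ (n : ℕ) (p : MvPolynomial (Fin n) ℝ) (e x0 : Fin n → ℝ), p.IsHomogeneous 3 →
      IsHyperbolic p e → (∀ i, eval x0 (pderiv i p) = 0) →
      Matrix.of (fun i j => eval x0 (pderiv i (pderiv j p))) ≠ 0 →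
      (Matrix.of (fun i j => eval x0 (pderiv i (pderiv j p)))).rank ≤ 3 →
      IsSpectrahedron (hyperbolicityCone p e) ∧
        (x0 ∈ hyperbolicityCone p e ∨ -x0 ∈ hyperbolicityCone p e)) ∧
    (∀ (n : ℕ) (f : MvPolynomial (Fin n) ℝ) (e u0 u1 u2 : Fin n → ℝ), f.IsHomogeneous 3 →
      Real.sqrt ((u1 ⬝ᵥ e) ^ 2 + (u2 ⬝ᵥ e) ^ 2) < u0 ⬝ᵥ e →
      (∃ x : Fin n → ℝ, (u0 ⬝ᵥ x) ^ 2 < (u1 ⬝ᵥ x) ^ 2 + (u2 ⬝ᵥ x) ^ 2) →
      0 < eval e f →
      (∀ x : Fin n → ℝ, 0 < u0 ⬝ᵥ x → (u0 ⬝ᵥ x) ^ 2 = (u1 ⬝ᵥ x) ^ 2 + (u2 ⬝ᵥ x) ^ 2 →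
        eval x f ≤ 0) →
      IsHyperbolic f e ∧ IsSpectrahedron (hyperbolicityCone f e)) ∧
    (∀ (σ : Type) [Fintype σ] (m N J : ℕ) (Γ : Fin m → Matrix (Fin N) (Fin N) ℝ),
      0 < N → (∀ i, (Γ i).IsSymm) → (∀ i, Γ i * Γ i = 1) →
      (∀ i j, i ≠ j → Γ i * Γ j + Γ j * Γ i = 0) → (∀ i, (Γ i).trace = 0) → 0 < J →
      ∀ (l0 h0 : σ → ℝ) (h : Fin m → σ → ℝ) (V : Fin J → Fin N → σ → ℝ) (e : σ → ℝ),
        ∑ k, h0 k * e k = 1 → (∀ i, ∑ k, h i k * e k = 0) →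
        0 < eval e (cliffordCubic Γ l0 h0 h V) →
        IsHyperbolic (cliffordCubic Γ l0 h0 h V) e ∧
        IsSpectrahedron (hyperbolicityCone (cliffordCubic Γ l0 h0 h V) e) ∧
        (∀ x0 : σ → ℝ, ∑ k, h0 k * x0 k = 0 → (∀ i, ∑ k, h i k * x0 k = 0) →
          (∀ j a, ∑ k, V j a k * x0 k = 0) → 0 ≤ ∑ k, l0 k * x0 k →
          x0 ∈ hyperbolicityCone (cliffordCubic Γ l0 h0 h V) e ∧
          eval x0 (cliffordCubic Γ l0 h0 h V) = 0 ∧
          ∀ v, eval x0 (pderiv v (cliffordCubic Γ l0 h0 h V)) = 0) ∧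
        (1 + m + J * N < Fintype.card σ →
          ∃ x0 : σ → ℝ, x0 ≠ 0 ∧ x0 ∈ hyperbolicityCone (cliffordCubic Γ l0 h0 h V) e ∧
            eval x0 (cliffordCubic Γ l0 h0 h V) = 0 ∧
            ∀ v, eval x0 (pderiv v (cliffordCubic Γ l0 h0 h V)) = 0)) ∧
    (∀ m : ℕ, ∃ (N : ℕ) (Γ : Fin m → Matrix (Fin N) (Fin N) ℝ),
      0 < N ∧ (∀ i, (Γ i).IsSymm) ∧ (∀ i, Γ i * Γ i = 1) ∧
      (∀ i j, i ≠ j → Γ i * Γ j + Γ j * Γ i = 0) ∧ (∀ i, (Γ i).trace = 0)) := by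
  refine ⟨?_, ?_, ?_, ?_⟩
  · intro _ p e x0 hp hyp hsing hH hrank
    exact singular_cubic p hp e x0 hyp hsing hH hrank
  · intro _ f e u0 u1 u2 hf he hnd hfe hbd
    exact cone_criterion f hf e u0 u1 u2 he hnd hfe hbd
  · intro σ _ m N J Γ hN hsymm hsq hanti htr hJ l0 h0 h V e he0 hei hpe
    exact cliffordCubic_main Γ ⟨hN, hsymm, hsq, hanti, htr⟩ hJ l0 h0 h V e he0 hei hpe
  · intro m
    obtain ⟨N, Γ, hΓ⟩ := exists_isCliff m
    exact ⟨N, Γ, hΓ.pos, hΓ.symm, hΓ.sq, hΓ.anti, hΓ.tr⟩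

end Vale.Agent.Results.P256.CubicsOmnibus
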