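import Vale.Agent.Lib.P256.R3Main

namespace Vale.Agent.Results.P256.RankThreeNodes

open MvPolynomial Vale.Agent.Lib.P256

/-- Cubics with a node of rank three. Let `r` be an arbitrary real cubic form in the variables
`y0, y1, y2` (indexed by `Sum.inl 0, 1, 2`) and `z_c` (indexed by `Sum.inr c`, `c` in any finite
type `κ`), and let `p = s * (y0^2 - y1^2 - y2^2) - r`, where `s = X none` is one further variable.
For every `e` whose `y`-coordinates satisfy `sqrt (e1^2 + e2^2) < e0`: `p` is hyperbolic with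
respect to `e` if and only if `p e > 0` and `r ≥ 0` on the forward null cone
`{w | w0 ≥ 0, w0^2 = w1^2 + w2^2}`; in that case the hyperbolicity cone is a spectrahedron and
contains the point `x0 = (1, 0, …, 0)`; and `x0` is a zero of `p` at which all first derivatives
of `p` vanish. -/
theorem result (κ : Type) [Fintype κ] [DecidableEq κ]
    (r : MvPolynomial (Fin 3 ⊕ κ) ℝ) (hr : r.IsHomogeneous 3) (e : Option (Fin 3 ⊕ κ) → ℝ)
    (he : Real.sqrt (e (some (Sum.inl 1)) ^ 2 + e (some (Sum.inl 2)) ^ 2) < e (some (Sum.inl 0))) :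
    (IsHyperbolic (X none * (X (some (Sum.inl 0)) ^ 2 - X (some (Sum.inl 1)) ^ 2
          - X (some (Sum.inl 2)) ^ 2) - rename some r) e ↔
      0 < eval e (X none * (X (some (Sum.inl 0)) ^ 2 - X (some (Sum.inl 1)) ^ 2
          - X (some (Sum.inl 2)) ^ 2) - rename some r) ∧
        ∀ w : Fin 3 ⊕ κ → ℝ, 0 ≤ w (Sum.inl 0) →
          w (Sum.inl 0) ^ 2 = w (Sum.inl 1) ^ 2 + w (Sum.inl 2) ^ 2 → 0 ≤ eval w r) ∧
    (IsHyperbolic (X none * (X (some (Sum.inl 0)) ^ 2 - X (some (Sum.inl 1)) ^ 2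
          - X (some (Sum.inl 2)) ^ 2) - rename some r) e →
      IsSpectrahedron (hyperbolicityCone (X none * (X (some (Sum.inl 0)) ^ 2
          - X (some (Sum.inl 1)) ^ 2 - X (some (Sum.inl 2)) ^ 2) - rename some r) e) ∧
      Pi.single none 1 ∈ hyperbolicityCone (X none * (X (some (Sum.inl 0)) ^ 2
          - X (some (Sum.inl 1)) ^ 2 - X (some (Sum.inl 2)) ^ 2) - rename some r) e) ∧
    (eval (Pi.single none 1) (X none * (X (some (Sum.inl 0)) ^ 2 - X (some (Sum.inl 1)) ^ 2
          - X (some (Sum.inl 2)) ^ 2) - rename some r) = 0 ∧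
      ∀ v, eval (Pi.single none 1) (pderiv v (X none * (X (some (Sum.inl 0)) ^ 2
          - X (some (Sum.inl 1)) ^ 2 - X (some (Sum.inl 2)) ^ 2) - rename some r)) = 0) :=
  rank3_main r hr e he

end Vale.Agent.Results.P256.RankThreeNodes
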