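import Vale.Agent.Lib.P256.R2Main

namespace Vale.Agent.Results.P256.RankTwoNodes

open MvPolynomial Vale.Agent.Lib.P256

/-- Cubics with a node of rank two. Let `r` be an arbitrary real cubic form in finitely many
variables indexed by `τ`, two of which are `a ≠ b`, and let `p = s * a * b - r`, where `s` is one
further variable (`s = X none`, the variables of `r` are the `X (some i)`). For every `e` with
`e_a > 0` and `e_b > 0`: `p` is hyperbolic with respect to `e` if and only if `p e > 0` and
`r ≥ 0` on the two half-hyperplanes `{w_a = 0, w_b ≥ 0}` and `{w_b = 0, w_a ≥ 0}`; in that case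
the hyperbolicity cone is a spectrahedron and contains the point `x0 = (1, 0, …, 0)`; and `x0` is
a zero of `p` at which all first derivatives of `p` vanish. -/
theorem result (τ : Type) [Fintype τ] [DecidableEq τ] (a b : τ) (hab : a ≠ b)
    (r : MvPolynomial τ ℝ) (hr : r.IsHomogeneous 3) (e : Option τ → ℝ)
    (hea : 0 < e (some a)) (heb : 0 < e (some b)) :
    (IsHyperbolic (X none * X (some a) * X (some b) - rename some r) e ↔
      0 < eval e (X none * X (some a) * X (some b) - rename some r) ∧
        ∀ w : τ → ℝ, 0 ≤ w a → 0 ≤ w b → w a * w b = 0 → 0 ≤ eval w r) ∧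
    (IsHyperbolic (X none * X (some a) * X (some b) - rename some r) e →
      IsSpectrahedron (hyperbolicityCone (X none * X (some a) * X (some b) - rename some r) e) ∧
      Pi.single none 1 ∈
        hyperbolicityCone (X none * X (some a) * X (some b) - rename some r) e) ∧
    (eval (Pi.single none 1) (X none * X (some a) * X (some b) - rename some r) = 0 ∧
      ∀ v, eval (Pi.single none 1)
        (pderiv v (X none * X (some a) * X (some b) - rename some r)) = 0) :=
  rank2_main a b hab r hr e hea heb

end Vale.Agent.Results.P256.RankTwoNodes
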