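import Vale.Agent.Lib.P256.SgMain

namespace Vale.Agent.Results.P256.SingularCubics

open MvPolynomial Matrix Vale.Agent.Lib.P256

/-- Hyperbolic cubics with a singular point, in any number of variables, coordinate-free.

(1) Let `p` be a real cubic form in `n` variables that is hyperbolic with respect to `e`, and let
`x0` be a real point at which all first derivatives of `p` vanish and at which the Hessian matrix
of `p` is nonzero of rank at most three. Then the hyperbolicity cone `K(p, e)` is a spectrahedron,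
and `x0` or `-x0` belongs to it (a point of the cone at which `p` is not smooth).

(2) Criterion. Let `f` be a real cubic form with `f e > 0`, and let `u0, u1, u2` be (coefficient
vectors of) linear forms such that `e` is an interior point of the circular cone
`{x | u0·x ≥ sqrt ((u1·x)^2 + (u2·x)^2)}` and this cone is not a half-space. If `f ≤ 0` at every
boundary point `x` of the cone with `u0·x > 0`, then `f` is hyperbolic with respect to `e` and
`K(f, e)` is a spectrahedron. -/
theorem result :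
    (∀ (n : ℕ) (p : MvPolynomial (Fin n) ℝ) (e x0 : Fin n → ℝ), p.IsHomogeneous 3 →
      IsHyperbolic p e → (∀ i, eval x0 (pderiv i p) = 0) →
      Matrix.of (fun i j => eval x0 (pderiv i (pderiv j p))) ≠ 0 →
      (Matrix.of (fun i j => eval x0 (pderiv i (pderiv j p)))).rank ≤ 3 →
      IsSpectrahedron (hyperbolicityCone p e) ∧
        (x0 ∈ hyperbolicityCone p e ∨ -x0 ∈ hyperbolicityCone p e)) ∧
    (∀ (n : ℕ) (f : MvPolynomial (Fin n) ℝ) (e u0 u1 u2 : Fin n → ℝ), f.IsHomogeneous 3 →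
      Real.sqrt ((u1 ⬝ᵥ e) ^ 2 + (u2 ⬝ᵥ e) ^ 2) < u0 ⬝ᵥ e →
      (∃ x : Fin n → ℝ, (u0 ⬝ᵥ x) ^ 2 < (u1 ⬝ᵥ x) ^ 2 + (u2 ⬝ᵥ x) ^ 2) →
      0 < eval e f →
      (∀ x : Fin n → ℝ, 0 < u0 ⬝ᵥ x → (u0 ⬝ᵥ x) ^ 2 = (u1 ⬝ᵥ x) ^ 2 + (u2 ⬝ᵥ x) ^ 2 →
        eval x f ≤ 0) →
      IsHyperbolic f e ∧ IsSpectrahedron (hyperbolicityCone f e)) :=
  ⟨fun _ p e x0 hp hyp hsing hH hrank => singular_cubic p hp e x0 hyp hsing hH hrank,
   fun _ f e u0 u1 u2 hf he hnd hfe hbd => cone_criterion f hf e u0 u1 u2 he hnd hfe hbd⟩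

end Vale.Agent.Results.P256.SingularCubics
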